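import Vale.Agent.Lib.P166.Universal

/-!
# P166, hand-in `Universality`

Under exactly the standing assumptions of the problem, the large-`N` behaviour of the expected
pressure depends on the spectra only through `(β, μ)`:
if `lam N` and `lam' N` are two sequences of deterministic spectra whose empirical measures
converge weakly to the same compactly supported probability measure `μ` and whose smallest and
largest eigenvalues converge to `min supp μ` and `max supp μ`, then for every `β ≥ 0`

  `E P_N(β; lam N) - E P_N(β; lam' N) → 0`,

the expectation being over `U_N` Haar distributed on `O(N)`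
(`ν N` = a left-invariant Borel probability measure on the compact group `O(N)`; it is unique).
No assumption is made on the temperature or on the shape of `supp μ` (gaps are allowed).
-/

namespace Vale.Agent.Results.P166.Universality

open Vale.Agent.Lib.P166 MeasureTheory Filter Topology

theorem result [∀ N : ℕ, MeasurableSpace (Matrix.orthogonalGroup (Fin N) ℝ)]
    [∀ N : ℕ, BorelSpace (Matrix.orthogonalGroup (Fin N) ℝ)]
    (ν : ∀ N : ℕ, Measure (Matrix.orthogonalGroup (Fin N) ℝ))
    [∀ N : ℕ, IsProbabilityMeasure (ν N)] [∀ N : ℕ, (ν N).IsMulLeftInvariant]
    (μ : Measure ℝ) [IsProbabilityMeasure μ] (hμ : IsCompact μ.support)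
    (lam lam' : ∀ N : ℕ, Fin N → ℝ) (h : Admissible μ lam) (h' : Admissible μ lam')
    (β : ℝ) (hβ : 0 ≤ β) :
    Tendsto (fun N : ℕ => meanPressure (ν N) β (lam N) - meanPressure (ν N) β (lam' N))
      atTop (𝓝 0) :=
  universality ν μ hμ h h' hβ

end Vale.Agent.Results.P166.Universality
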