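import Vale.Agent.Results.P166.SchurConvex
import Vale.Agent.Results.P166.Universality

/-!
# P166, hand-in `A_Combined`

Two facts about the expected pressure `E P_N(β)` of the coupling matrix `J = Uᵀ diag(lam) U`,
`U` Haar distributed on `O(N)`, both valid at every inverse temperature `β ≥ 0`.

1. (Schur convexity) If `lam' ≤ D lam` coordinatewise for a doubly stochastic matrix `D`, then
   `E P_N(β; lam') ≤ E P_N(β; lam)`.
2. (Universality) If two sequences of deterministic spectra satisfy the standing assumptions of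
   the problem for the same compactly supported probability measure `μ`, then
   `E P_N(β; lam N) - E P_N(β; lam' N) → 0`.

The Haar probability measure enters as an arbitrary left-invariant Borel probability measure
on the compact group `O(N)` (there is exactly one).
-/

namespace Vale.Agent.Results.P166.A_Combined

open Vale.Agent.Lib.P166 MeasureTheory Filter Topology Matrix

theorem result :
    (∀ (N : ℕ) [MeasurableSpace (Matrix.orthogonalGroup (Fin N) ℝ)]
      [BorelSpace (Matrix.orthogonalGroup (Fin N) ℝ)]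
      (ν : Measure (Matrix.orthogonalGroup (Fin N) ℝ)) [IsProbabilityMeasure ν]
      [ν.IsMulLeftInvariant] (β : ℝ) (_ : 0 ≤ β) (lam lam' : Fin N → ℝ)
      (D : Matrix (Fin N) (Fin N) ℝ) (_ : D ∈ doublyStochastic ℝ (Fin N))
      (_ : ∀ k, lam' k ≤ (D *ᵥ lam) k),
      meanPressure ν β lam' ≤ meanPressure ν β lam) ∧
    (∀ [∀ N : ℕ, MeasurableSpace (Matrix.orthogonalGroup (Fin N) ℝ)]
      [∀ N : ℕ, BorelSpace (Matrix.orthogonalGroup (Fin N) ℝ)]
      (ν : ∀ N : ℕ, Measure (Matrix.orthogonalGroup (Fin N) ℝ))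
      [∀ N : ℕ, IsProbabilityMeasure (ν N)] [∀ N : ℕ, (ν N).IsMulLeftInvariant]
      (μ : Measure ℝ) [IsProbabilityMeasure μ] (_ : IsCompact μ.support)
      (lam lam' : ∀ N : ℕ, Fin N → ℝ) (_ : Admissible μ lam) (_ : Admissible μ lam')
      (β : ℝ) (_ : 0 ≤ β),
      Tendsto (fun N : ℕ => meanPressure (ν N) β (lam N) - meanPressure (ν N) β (lam' N))
        atTop (𝓝 0)) :=
  ⟨fun N _ _ ν _ _ β hβ lam lam' D hD h => SchurConvex.result N ν β hβ lam lam' D hD h,
   fun ν _ _ μ _ hμ lam lam' h h' β hβ => Universality.result ν μ hμ lam lam' h h' β hβ⟩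

end Vale.Agent.Results.P166.A_Combined
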