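import Vale.Agent.Lib.P166.Basic

/-!
# P166, hand-in `SchurConvex`

For `U` Haar distributed on `O(N)` the expected pressure `E P_N(β)` of the coupling matrix
`J = Uᵀ diag(lam) U` is, at every inverse temperature `β ≥ 0`, a monotone and Schur-convex function
of the spectrum `lam`: if `lam' ≤ D lam` coordinatewise for a doubly stochastic matrix `D`
(that is, `lam'` is weakly submajorized by `lam`), then `E P_N(β; lam') ≤ E P_N(β; lam)`.

The Haar probability measure enters as an arbitrary left-invariant Borel probability measure `ν`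
on the compact group `O(N)` (there is exactly one).
-/

namespace Vale.Agent.Results.P166.SchurConvex

open Vale.Agent.Lib.P166 MeasureTheory Matrix

theorem result (N : ℕ) [MeasurableSpace (Matrix.orthogonalGroup (Fin N) ℝ)]
    [BorelSpace (Matrix.orthogonalGroup (Fin N) ℝ)]
    (ν : Measure (Matrix.orthogonalGroup (Fin N) ℝ)) [IsProbabilityMeasure ν]
    [ν.IsMulLeftInvariant] (β : ℝ) (hβ : 0 ≤ β) (lam lam' : Fin N → ℝ)
    (D : Matrix (Fin N) (Fin N) ℝ) (hD : D ∈ doublyStochastic ℝ (Fin N))
    (h : ∀ k, lam' k ≤ (D *ᵥ lam) k) :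
    meanPressure ν β lam' ≤ meanPressure ν β lam :=
  meanPressure_le_of_le_doublyStochastic ν hβ hD h

end Vale.Agent.Results.P166.SchurConvex
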